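import Mathlib

set_option autoImplicit false
open Set Filter

namespace Crest.Agent.FP

variable {M : Type*} [Semigroup M]

/-- iterated-limit product of filters on a semigroup -/
def fmul (F G : Filter M) : Filter M := F.bind fun a => G.map (a * ·)

theorem eventually_fmul {F G : Filter M} {p : M → Prop} :
    (∀ᶠ x in fmul F G, p x) ↔ ∀ᶠ a in F, ∀ᶠ b in G, p (a * b) := by
  simp only [fmul, eventually_bind, eventually_map]

theorem frequently_fmul {F G : Filter M} {p : M → Prop} :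
    (∃ᶠ x in fmul F G, p x) ↔ ∃ᶠ a in F, ∃ᶠ b in G, p (a * b) := by
  simp only [Filter.Frequently, eventually_fmul, not_not]

theorem fmul_mono {F F' G G' : Filter M} (h : F ≤ F') (h' : G ≤ G') : fmul F G ≤ fmul F' G' := by
  intro s hs
  have h1 : ∀ᶠ x in fmul F' G', x ∈ s := hs
  rw [eventually_fmul] at h1
  have : ∀ᶠ x in fmul F G, x ∈ s :=
    eventually_fmul.2 ((h1.filter_mono h).mono fun a ha => ha.filter_mono h')
  exact this

theorem fmul_assoc (F G H : Filter M) : fmul (fmul F G) H = fmul F (fmul G H) := by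
  ext s
  change (∀ᶠ x in fmul (fmul F G) H, x ∈ s) ↔ ∀ᶠ x in fmul F (fmul G H), x ∈ s
  simp only [eventually_fmul, mul_assoc]

theorem fmul_neBot {F G : Filter M} (hF : F.NeBot) (hG : G.NeBot) : (fmul F G).NeBot := by
  rw [← frequently_true_iff_neBot, frequently_fmul]
  simp only [frequently_true_iff_neBot, hG, hF]

/-- a one-parameter semigroup of filters refining a given submultiplicative family -/
theorem exists_fsemigroup (L : ℝ → Filter M) (hL : ∀ τ, 0 < τ → (L τ).NeBot)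
    (hLm : ∀ ρ τ, 0 < ρ → 0 < τ → fmul (L ρ) (L τ) ≤ L (ρ + τ)) :
    ∃ F : ℝ → Filter M, (∀ τ, F τ ≤ L τ) ∧ (∀ τ, 0 < τ → (F τ).NeBot) ∧
      ∀ ρ τ, 0 < ρ → ρ < τ → F τ ≤ fmul (F ρ) (F (τ - ρ)) := by
  let S : Set (ℝ → Filter M)ᵒᵈ := {F | (∀ τ, OrderDual.ofDual F τ ≤ L τ) ∧
    (∀ τ, 0 < τ → (OrderDual.ofDual F τ).NeBot) ∧ ∀ ρ τ, 0 < ρ → 0 < τ →
      fmul (OrderDual.ofDual F ρ) (OrderDual.ofDual F τ) ≤ OrderDual.ofDual F (ρ + τ)}
  obtain ⟨F', -, hF'⟩ := zorn_le_nonempty₀ S (fun c hcS hc y hy => by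
    have : Nonempty c := ⟨⟨y, hy⟩⟩
    refine ⟨OrderDual.toDual fun τ => ⨅ F : c, OrderDual.ofDual F.1 τ, ⟨fun τ => ?_, fun τ hτ => ?_,
      fun ρ τ hρ hτ => ?_⟩, fun z hz τ => ?_⟩
    · exact (iInf_le _ ⟨y, hy⟩).trans ((hcS hy).1 τ)
    · refine iInf_neBot_of_directed' ?_ fun F => (hcS F.2).2.1 τ hτ
      intro D D'
      rcases hc.total D.2 D'.2 with h | h
      · exact ⟨D', h τ, le_rfl⟩
      · exact ⟨D, le_rfl, h τ⟩
    · exact le_iInf fun F => (fmul_mono (iInf_le _ F) (iInf_le _ F)).trans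
        ((hcS F.2).2.2 ρ τ hρ hτ)
    · exact iInf_le (fun F : c => OrderDual.ofDual F.1 τ) ⟨z, hz⟩) (OrderDual.toDual L)
    ⟨fun _ => le_rfl, hL, hLm⟩
  obtain ⟨h1, h2, h3⟩ := hF'.prop
  set F := OrderDual.ofDual F' with hF
  refine ⟨F, h1, h2, ?_⟩
  let G : ℝ → Filter M := fun τ => F τ ⊓ ⨅ ρ : Ioo 0 τ, fmul (F ρ) (F (τ - ρ))
  have hGF : ∀ τ, G τ ≤ F τ := fun τ => inf_le_left
  have hGm : ∀ ρ τ, 0 < ρ → ρ < τ → G τ ≤ fmul (F ρ) (F (τ - ρ)) := fun ρ τ a b =>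
    inf_le_right.trans (iInf_le (fun ρ : Ioo 0 τ => fmul (F ρ) (F (τ - ρ))) ⟨ρ, a, b⟩)
  have fin : ∀ R : Finset ℝ, ∀ τ, 0 < τ → (∀ ρ ∈ R, 0 < ρ ∧ ρ < τ) →
      ∃ H : Filter M, H.NeBot ∧ H ≤ F τ ∧ ∀ ρ ∈ R, H ≤ fmul (F ρ) (F (τ - ρ)) := by
    intro R
    induction R using Finset.induction_on_max with
    | empty => exact fun τ hτ _ => ⟨F τ, h2 τ hτ, le_rfl, by simp⟩
    | insert m R hm ih =>
      intro τ hτ hR
      obtain ⟨hm0, hmτ⟩ := hR m (Finset.mem_insert_self _ _)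
      obtain ⟨H, g1, g2, g3⟩ := ih m hm0 fun ρ hρ =>
        ⟨(hR ρ (Finset.mem_insert_of_mem hρ)).1, hm ρ hρ⟩
      refine ⟨fmul H (F (τ - m)), fmul_neBot g1 (h2 _ (by linarith)), ?_, fun ρ hρ => ?_⟩
      · have := h3 m (τ - m) hm0 (by linarith)
        rw [add_sub_cancel] at this
        exact (fmul_mono g2 le_rfl).trans this
      · rcases Finset.mem_insert.1 hρ with rfl | hρ
        · exact fmul_mono g2 le_rfl
        · refine (fmul_mono (g3 ρ hρ) le_rfl).trans ?_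
          rw [fmul_assoc]
          refine fmul_mono le_rfl ?_
          have := h3 (m - ρ) (τ - m) (by have := hm ρ hρ; linarith) (by linarith)
          rwa [show m - ρ + (τ - m) = τ - ρ by ring] at this
  have hGS : OrderDual.toDual G ∈ S := by
    refine ⟨fun τ => (hGF τ).trans (h1 τ), fun τ hτ => ?_, fun ρ τ hρ hτ => ?_⟩
    · change (F τ ⊓ ⨅ ρ : Ioo 0 τ, fmul (F ρ) (F (τ - ρ))).NeBot
      rw [inf_neBot_iff]
      intro s hs t ht
      rw [mem_iInf_finite] at ht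
      obtain ⟨I, hI⟩ := ht
      classical
      obtain ⟨H, g1, g2, g3⟩ := fin (I.image Subtype.val) τ hτ (by
        intro ρ hρ
        obtain ⟨r, -, rfl⟩ := Finset.mem_image.1 hρ
        exact r.2)
      have : H ≤ ⨅ i ∈ I, fmul (F i) (F (τ - i)) :=
        le_iInf₂ fun i hi => g3 _ (Finset.mem_image_of_mem _ hi)
      exact g1.nonempty_of_mem (inter_mem (g2 hs) (this hI))
    · change fmul (G ρ) (G τ) ≤ F (ρ + τ) ⊓ ⨅ r : Ioo 0 (ρ + τ), fmul (F r) (F (ρ + τ - r))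
      refine le_inf ((fmul_mono (hGF _) (hGF _)).trans (h3 ρ τ hρ hτ)) (le_iInf ?_)
      rintro ⟨r, hr0, hr⟩
      rcases lt_trichotomy r ρ with h | h | h
      · refine (fmul_mono (hGm r ρ hr0 h) (hGF τ)).trans ?_
        rw [fmul_assoc]
        refine fmul_mono le_rfl ?_
        have := h3 (ρ - r) τ (by linarith) hτ
        rwa [show ρ - r + τ = ρ + τ - r by ring] at this
      · subst h
        simp only [add_sub_cancel_left]
        exact fmul_mono (hGF _) (hGF _)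
      · refine (fmul_mono (hGF ρ) (hGm (r - ρ) τ (by linarith) (by linarith))).trans ?_
        rw [← fmul_assoc, show τ - (r - ρ) = ρ + τ - r by ring]
        refine fmul_mono ?_ le_rfl
        have := h3 ρ (r - ρ) hρ (by linarith)
        rwa [add_sub_cancel] at this
  have := hF'.le_of_ge hGS (fun τ => hGF τ)
  exact fun ρ τ a b => (this τ).trans (hGm ρ τ a b)

end Crest.Agent.FP
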