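import Crest.Agent.FP.Weak

set_option autoImplicit false
open Set Filter Topology Metric TopologicalSpace

namespace Crest.Agent.FP

variable {X : Type*} [NormedAddCommGroup X] [NormedSpace ℝ X]

/-- In a space with separable dual, sums of adaptively chosen weakly small steps can be made small
in norm. -/
theorem game [SeparableSpace (StrongDual ℝ X)] {St : Type*} (rem : St → ℝ)
    (R : St → ℝ → St → X → Prop) {κ : ℝ} (hκ : 0 < κ)
    (hrem : ∀ s b s' e, R s b s' e → rem s' = rem s - b)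
    (hnorm : ∀ s b s' e, R s b s' e → ‖e‖ ≤ κ * b)
    (htrans : ∀ s b s' e b' s'' e', R s b s' e → R s' b' s'' e' → R s (b + b') s'' (e + e'))
    (hbase : ∀ s b, 0 < b → b < rem s → ∀ F : Finset (StrongDual ℝ X), ∀ η > 0,
      ∃ s' e, R s b s' e ∧ ∀ ψ ∈ F, |ψ e| ≤ η)
    {δ : ℝ} (hδ : 0 < δ) (s : St) (b : ℝ) (hb : 0 < b) (hbs : b < rem s) :
    ∃ s' e, R s b s' e ∧ ‖e‖ ≤ 2 * δ * κ * b := by
  classical
  let B : Set (WeakDual ℝ X) := WeakDual.toStrongDual ⁻¹' closedBall 0 1
  have hB : IsCompact B := WeakDual.isCompact_closedBall (𝕜 := ℝ) (0 : StrongDual ℝ X) 1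
  let Good : Set (WeakDual ℝ X) → Prop := fun L => ∀ s b, 0 < b → b < rem s →
    ∀ F : Finset (StrongDual ℝ X), ∀ η > 0,
      ∃ s' e, R s b s' e ∧ (∀ ψ ∈ F, |ψ e| ≤ η) ∧ ∀ Ψ ∈ L, Ψ e ≤ δ * κ * b + η
  let S : Set (Set (WeakDual ℝ X)) :=
    {U | IsOpen U ∧ ∀ L, IsCompact L → L ⊆ U ∩ B → Good L}
  have hG0 : Good ∅ := fun s b h1 h2 F η hη => by
    obtain ⟨s', e, h, h'⟩ := hbase s b h1 h2 F η hη
    exact ⟨s', e, h, h', by simp⟩
  obtain ⟨U, hU⟩ := zorn_subset S (fun c hcS hc => by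
    refine ⟨⋃₀ c, ⟨isOpen_sUnion fun U hU => (hcS hU).1, fun L hL hLU => ?_⟩,
      fun U hU => subset_sUnion_of_mem hU⟩
    rcases c.eq_empty_or_nonempty with rfl | hne
    · have : L = ∅ := by simpa using hLU
      rw [this]; exact hG0
    · have : Nonempty c := hne.to_subtype
      obtain ⟨U, hU⟩ := hL.elim_directed_cover (fun U : c => U.1) (fun U => (hcS U.2).1)
        (by rw [← sUnion_eq_iUnion]; exact hLU.trans inter_subset_left)
        (by
          intro D D'
          rcases hc.total D.2 D'.2 with h | h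
          · exact ⟨D', h, subset_rfl⟩
          · exact ⟨D, subset_rfl, h⟩)
      exact (hcS U.2).2 L hL (subset_inter hU (hLU.trans inter_subset_right)))
  obtain ⟨hUo, hUg⟩ := hU.prop
  have hbound : ∀ Ψ ∈ B, ∀ e : X, Ψ e ≤ ‖e‖ := fun Ψ hΨ e => by
    simp only [B, mem_preimage, mem_closedBall, dist_zero_right] at hΨ
    calc Ψ e = WeakDual.toStrongDual Ψ e := rfl
      _ ≤ ‖WeakDual.toStrongDual Ψ e‖ := le_abs_self _
      _ ≤ ‖WeakDual.toStrongDual Ψ‖ * ‖e‖ := ContinuousLinearMap.le_opNorm _ _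
      _ ≤ 1 * ‖e‖ := by gcongr
      _ = _ := one_mul _
  have hBU : B ⊆ U := by
    by_contra hn
    have hne : (B \ U).Nonempty := by
      rw [not_subset] at hn
      obtain ⟨x, h1, h2⟩ := hn
      exact ⟨x, h1, h2⟩
    obtain ⟨a, W, hW, ⟨x₀, hx₀W, hx₀B, hx₀U⟩, hWa⟩ := frag (hB.diff hUo) hne hδ
    suffices h : U ∪ W ∈ S from
      hx₀U (hU.le_of_ge h subset_union_left (Or.inr hx₀W))
    refine ⟨hUo.union hW, fun L hL hLU => ?_⟩
    intro s b hb hbs F η hη
    obtain ⟨n, hn⟩ := exists_nat_gt (2 * κ * b / η)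
    set N : ℝ := (n : ℝ) + 1 with hN
    have hN0 : 0 < N := by positivity
    set β := b / N with hβ
    set η' := η / (4 * N) with hη'
    have hβ0 : 0 < β := by positivity
    have hη'0 : 0 < η' := by positivity
    set θ := δ * κ * β + 2 * η' with hθ
    have round : ∀ s₁, β < rem s₁ → ∀ Bad, IsCompact Bad → Bad ⊆ L ∩ U →
        ∃ s₂ e Bad', R s₁ β s₂ e ∧ IsCompact Bad' ∧ Bad' ⊆ L ∩ U ∧ (∀ ψ ∈ F, |ψ e| ≤ η') ∧
          ∀ Ψ ∈ L, Ψ e + (if Ψ ∈ Bad then κ * β else 0) ≤ θ + (if Ψ ∈ Bad' then κ * β else 0) := by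
      intro s₁ h₁ Bad hBad hBL
      obtain ⟨s₂, e, hR, hF, hBe⟩ := hUg Bad hBad
        (fun x hx => ⟨(hBL hx).2, (hLU (hBL hx).1).2⟩) s₁ β hβ0 h₁ (insert a F) η' hη'0
      have he := hnorm _ _ _ _ hR
      refine ⟨s₂, e, Bad ∪ (L ∩ {Ψ | θ ≤ Ψ e}), hR, hBad.union (hL.inter_right
        (isClosed_le continuous_const (WeakDual.eval_continuous e))), ?_,
        fun ψ hψ => hF ψ (Finset.mem_insert_of_mem hψ), fun Ψ hΨ => ?_⟩
      · refine union_subset hBL fun Ψ hΨ => ⟨hΨ.1, ?_⟩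
        by_contra hΨU
        have h1 := hWa Ψ ⟨(hLU hΨ.1).1.resolve_left hΨU, (hLU hΨ.1).2, hΨU⟩
        have h2 := (abs_le.1 (hF a (Finset.mem_insert_self _ _))).2
        have h3 : Ψ e - a e ≤ δ * (κ * β) := by
          calc Ψ e - a e = (WeakDual.toStrongDual Ψ - a) e := rfl
            _ ≤ ‖(WeakDual.toStrongDual Ψ - a) e‖ := le_abs_self _
            _ ≤ ‖WeakDual.toStrongDual Ψ - a‖ * ‖e‖ := ContinuousLinearMap.le_opNorm _ _
            _ ≤ δ * (κ * β) := by gcongr
        have h4 : θ ≤ Ψ e := hΨ.2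
        linarith
      · by_cases h1 : Ψ ∈ Bad
        · have := hBe Ψ h1
          rw [if_pos h1, if_pos (mem_union_left _ h1)]
          linarith
        · rw [if_neg h1]
          by_cases h2 : θ ≤ Ψ e
          · rw [if_pos (mem_union_right _ (mem_inter hΨ (show Ψ ∈ {Ψ : WeakDual ℝ X | θ ≤ Ψ e} from h2)))]
            have := hbound Ψ (hLU hΨ).2 e
            have : 0 ≤ θ := by positivity
            linarith
          · split_ifs
            · have : 0 ≤ κ * β := by positivity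
              linarith
            · linarith
    have iter : ∀ k : ℕ, k ≤ n → ∃ s' e Bad, R s ((k + 1) * β) s' e ∧ IsCompact Bad ∧
        Bad ⊆ L ∩ U ∧ (∀ ψ ∈ F, |ψ e| ≤ (k + 1) * η') ∧
        ∀ Ψ ∈ L, Ψ e ≤ (k + 1) * θ + (if Ψ ∈ Bad then κ * β else 0) := by
      intro k
      induction k with
      | zero =>
        intro _
        have : β ≤ b := by
          rw [hβ, div_le_iff₀ hN0]
          have : (0 : ℝ) ≤ n := n.cast_nonneg
          nlinarith
        obtain ⟨s₂, e, Bad', h1, h2, h3, h4, h5⟩ := round s (by linarith) ∅ isCompact_empty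
          (empty_subset _)
        refine ⟨s₂, e, Bad', by simpa using h1, h2, h3, by simpa using h4, fun Ψ hΨ => ?_⟩
        simpa using h5 Ψ hΨ
      | succ k ih =>
        intro hk
        obtain ⟨s₁, e₁, Bad, g1, g2, g3, g4, g5⟩ := ih (by omega)
        have hk' : (k : ℝ) + 1 ≤ n := by exact_mod_cast hk
        have hb' : b = N * β := by rw [hβ]; field_simp
        have : β < rem s₁ := by
          rw [hrem _ _ _ _ g1]
          nlinarith
        obtain ⟨s₂, e, Bad', h1, h2, h3, h4, h5⟩ := round s₁ this Bad g2 g3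
        refine ⟨s₂, e₁ + e, Bad', ?_, h2, h3, fun ψ hψ => ?_, fun Ψ hΨ => ?_⟩
        · have := htrans _ _ _ _ _ _ _ g1 h1
          convert this using 1
          push_cast; ring
        · rw [map_add]
          refine (abs_add_le _ _).trans ?_
          have := g4 ψ hψ
          have := h4 ψ hψ
          push_cast; linarith
        · rw [map_add]
          have := g5 Ψ hΨ
          have := h5 Ψ hΨ
          push_cast; linarith
    obtain ⟨s', e, Bad, g1, -, -, g4, g5⟩ := iter n le_rfl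
    have hb' : N * β = b := by rw [hβ]; field_simp
    have hη'' : N * η' = η / 4 := by rw [hη']; field_simp
    refine ⟨s', e, by rw [← hb']; exact g1, fun ψ hψ => ?_, fun Ψ hΨ => ?_⟩
    · have := g4 ψ hψ
      rw [← hN, hη''] at this
      linarith
    · have h1 := g5 Ψ hΨ
      rw [← hN] at h1
      have h2 : κ * β ≤ η / 2 := by
        rw [div_lt_iff₀ hη] at hn
        rw [hβ, ← mul_div_assoc, div_le_iff₀ hN0]
        nlinarith
      have h3 : N * θ = δ * κ * b + η / 2 := by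
        rw [hθ, ← hb']
        linear_combination 2 * hη''
      have h4 : (if Ψ ∈ Bad then κ * β else 0) ≤ η / 2 := by
        split_ifs
        · exact h2
        · positivity
      linarith
  obtain ⟨s', e, hR, -, h⟩ := hUg B hB (subset_inter hBU subset_rfl) s b hb hbs ∅ (δ * κ * b)
    (by positivity)
  refine ⟨s', e, hR, ?_⟩
  obtain ⟨φ, h1, h2⟩ := exists_dual_vector'' ℝ e
  have := h (StrongDual.toWeakDual φ) (by simpa [B] using h1)
  have h3 : (StrongDual.toWeakDual φ) e = ‖e‖ := h2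
  linarith

end Crest.Agent.FP
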