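import Crest.Agent.FP.Dent
import Crest.Agent.FP.Game
import Crest.Agent.FP.Filt

set_option autoImplicit false
open Set Filter Topology Metric TopologicalSpace

namespace Crest.Agent.FP

variable {X : Type*} [NormedAddCommGroup X] [NormedSpace ℝ X]

/-- mass of a step -/
noncomputable def mass (d t ρ : ℝ) : ℝ := Real.exp (-t) * (1 - Real.exp (-ρ)) * d

theorem mass_add (d t ρ ρ' : ℝ) : mass d t (ρ + ρ') = mass d t ρ + mass d (t + ρ) ρ' := by
  simp only [mass, neg_add, Real.exp_add]; ring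

theorem mass_pos {d t ρ : ℝ} (hd : 0 < d) (hρ : 0 < ρ) : 0 < mass d t ρ := by
  have : Real.exp (-ρ) < 1 := Real.exp_lt_one_iff.2 (by linarith)
  have := Real.exp_pos (-t)
  unfold mass
  exact mul_pos (mul_pos this (by linarith)) hd

theorem mass_le {d t ρ : ℝ} (hd : 0 < d) (ht : 0 ≤ t) (hρ : 0 ≤ ρ) : mass d t ρ ≤ d * ρ := by
  have h1 : Real.exp (-t) ≤ 1 := Real.exp_le_one_iff.2 (by linarith)
  have h2 := Real.add_one_le_exp (-ρ)
  have h3 : Real.exp (-ρ) ≤ 1 := Real.exp_le_one_iff.2 (by linarith)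
  have h4 : Real.exp (-t) * (1 - Real.exp (-ρ)) ≤ 1 * ρ :=
    mul_le_mul h1 (by linarith) (by linarith) zero_le_one
  unfold mass
  nlinarith

theorem mass_two {d t ρ : ℝ} (hd : 0 < d) (hρ : 0 < ρ) : mass d t ρ ≤ 2 * mass d t (ρ / 2) := by
  have h := mass_add d t (ρ / 2) (ρ / 2)
  rw [add_halves] at h
  have h3 : Real.exp (-(ρ / 2)) ≤ 1 := Real.exp_le_one_iff.2 (by linarith)
  have h4 : mass d (t + ρ / 2) (ρ / 2) = Real.exp (-(ρ / 2)) * mass d t (ρ / 2) := by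
    simp only [mass, neg_add, Real.exp_add]; ring
  have h5 := mass_pos (t := t) hd (half_pos hρ)
  nlinarith

theorem core [SeparableSpace X] (hX : Refl X) {M : Type*} [Semigroup M] (τ : M → ℝ)
    (hτ0 : ∀ c, 0 ≤ τ c) (hτ : ∀ c c', τ (c * c') = τ c + τ c') (late : ℝ → M → Prop)
    (hlate : ∀ η c c', late η c → late η (c * c')) (F : ℝ → Filter M)
    (hF0 : ∀ ρ, 0 < ρ → (F ρ).NeBot) (hF1 : ∀ ρ, ∀ᶠ c in F ρ, τ c = ρ)
    (hF2 : ∀ ρ, ∀ η > 0, ∀ᶠ c in F ρ, late η c)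
    (hF3 : ∀ ρ t, 0 < ρ → ρ < t → F t ≤ fmul (F ρ) (F (t - ρ)))
    {d : ℝ} (hd : 0 < d) (h : M → X)
    (hU : ∀ c c', ‖h (c * c') - h c‖ ≤ mass d (τ c) (τ c'))
    (hL : ∀ c c₁, ∀ ε > 0, ∃ η > 0, ∀ c', late η c' →
      mass d (τ c) (τ c') - ε ≤ ‖h (c * c') - h (c * c₁)‖) : False := by
  classical
  have := sep_dual hX
  let V : Set X := {v | ∃ (c : M) (ρ : ℝ) (U : Ultrafilter M) (y : X), 0 < ρ ∧
    (U : Filter M) ≤ F ρ ∧ WLim (U : Filter M) (fun c' => h (c * c')) y ∧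
      y - h c = mass d (τ c) ρ • v}
  have hUb : ∀ c ρ, ∀ᶠ c' in F ρ, ‖h (c * c') - h c‖ ≤ mass d (τ c) ρ := fun c ρ =>
    (hF1 ρ).mono fun c' hc' => hc' ▸ hU c c'
  have hVex : ∀ (c : M) (ρ : ℝ) (U : Ultrafilter M), 0 < ρ → (U : Filter M) ≤ F ρ →
      ∃ y v, v ∈ V ∧ WLim (U : Filter M) (fun c' => h (c * c')) y ∧
        y - h c = mass d (τ c) ρ • v := fun c ρ U hρ hUF => by
    obtain ⟨y, hy⟩ := exists_wlim hX U (fun c' => h (c * c')) (mass d (τ c) ρ + ‖h c‖)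
      (((hUb c ρ).filter_mono hUF).mono fun c' hc' => by
        have := norm_le_insert' (h (c * c')) (h c)
        linarith)
    have e : y - h c = mass d (τ c) ρ • ((mass d (τ c) ρ)⁻¹ • (y - h c)) := by
      rw [smul_smul, mul_inv_cancel₀ (mass_pos hd hρ).ne', one_smul]
    exact ⟨y, _, ⟨c, ρ, U, y, hρ, hUF, hy, e⟩, hy, e⟩
  have hV1 : ∀ v ∈ V, ‖v‖ ≤ 1 := by
    rintro v ⟨c, ρ, U, y, hρ, hUF, hy, e⟩
    have h1 := hy.norm_le ((hUb c ρ).filter_mono hUF)
    have h2 := mass_pos (t := τ c) hd hρ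
    rw [e, norm_smul, Real.norm_of_nonneg h2.le] at h1
    exact le_of_mul_le_mul_left (by linarith) h2
  have hVne : V.Nonempty := by
    have := hF0 1 one_pos
    obtain ⟨c⟩ := nonempty_of_neBot (F 1)
    obtain ⟨y, v, hv, -⟩ := hVex c 1 (Ultrafilter.of (F 1)) one_pos (Ultrafilter.of_le _)
    exact ⟨v, hv⟩
  obtain ⟨φ, u, Λ, σ, hΛ, hσ, hσ', hden⟩ := dent hX hVne hV1 (δ := 1 / 10) (by norm_num)
  obtain ⟨v₀, ⟨c₀, ρ₀, U₀, y₀, hρ₀, hU₀, hy₀, e₀⟩, hv₀⟩ := hσ' (1 / (40 * Λ)) (by positivity)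
  set m₀ := mass d (τ c₀) ρ₀ with hm₀
  have hm₀0 : 0 < m₀ := mass_pos hd hρ₀
  set a := φ y₀ - 1 / (40 * Λ) * m₀ with ha
  let P : M × ℝ → Prop := fun s => ∃ᶠ c' in F s.2, a < φ (h (s.1 * c'))
  let df : M × ℝ → ℝ := fun s => σ * mass d (τ s.1) s.2 - (a - φ (h s.1))
  have hP₀ : P (c₀, ρ₀) := by
    have h1 : a < φ y₀ := by
      have : 0 < 1 / (40 * Λ) * m₀ := by positivity
      linarith
    exact (((hy₀ φ).eventually (lt_mem_nhds h1)).frequently).filter_mono hU₀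
  have hdf : ∀ s, P s → 0 < s.2 → 0 ≤ df s := by
    rintro ⟨c, t⟩ hs ht
    have := frequently_iff_neBot.1 hs
    let U := Ultrafilter.of (F t ⊓ 𝓟 {c' | a < φ (h (c * c'))})
    have hU1 : (U : Filter M) ≤ F t := (Ultrafilter.of_le _).trans inf_le_left
    have hU2 : ∀ᶠ c' in (U : Filter M), a < φ (h (c * c')) :=
      le_principal_iff.1 ((Ultrafilter.of_le _).trans inf_le_right)
    obtain ⟨y, v, hv, hy, e⟩ := hVex c t U ht hU1
    have h1 : a ≤ φ y := ge_of_tendsto (hy φ) (hU2.mono fun _ h => h.le)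
    have h2 := congrArg φ e
    rw [map_sub, map_smul, smul_eq_mul] at h2
    have h3 := mul_le_mul_of_nonneg_left (hσ v hv) (mass_pos (t := τ c) hd ht).le
    simp only [df]
    linarith
  set b := ρ₀ / 2 with hb
  have hb0 : 0 < b := half_pos hρ₀
  set m := mass d (τ c₀) b with hm
  have hm0 : 0 < m := mass_pos hd hb0
  have hmm : m₀ ≤ 2 * m := mass_two hd hρ₀
  set γ := m / (10 * Λ * b) with hγ
  have hγ0 : 0 < γ := by positivity
  have hdf₀ : Λ * df (c₀, ρ₀) ≤ m / 10 := by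
    have h2 := congrArg φ e₀
    rw [map_sub, map_smul, smul_eq_mul] at h2
    have h3 : df (c₀, ρ₀) = m₀ * (σ - φ v₀ + 1 / (40 * Λ)) := by
      simp only [df, ← hm₀, ha]; linarith
    have h4 : m₀ * (σ - φ v₀ + 1 / (40 * Λ)) ≤ m₀ * (2 * (1 / (40 * Λ))) :=
      mul_le_mul_of_nonneg_left (by linarith) hm₀0.le
    have h5 : Λ * (m₀ * (2 * (1 / (40 * Λ)))) = m₀ / 20 := by field_simp; ring
    have h6 := mul_le_mul_of_nonneg_left h4 hΛ.le
    rw [h3]; linarith
  have path : ∀ η > 0, ∃ c', late η c' ∧ τ c' = b ∧ ‖h (c₀ * c') - h c₀ - m • u‖ ≤ 4 * m / 10 := by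
    intro η hη
    let R : {s // P s} → ℝ → {s // P s} → X → Prop := fun s β s' e =>
      s'.1.2 = s.1.2 - β ∧ (∃ c'', s'.1.1 = s.1.1 * c'' ∧ τ c'' = β ∧ late η c'') ∧
        ‖e‖ ≤ 2 * d * β ∧ ‖h s'.1.1 - h s.1.1 - mass d (τ s.1.1) β • u - e‖ ≤
          1 / 10 * mass d (τ s.1.1) β + Λ * (df s.1 - df s'.1 + γ * β)
    obtain ⟨s', e, ⟨hr1, ⟨c', hr2, hr3, hr4⟩, -, hr5⟩, he⟩ := game (X := X)
      (fun s : {s // P s} => s.1.2) R (κ := 2 * d) (by positivity)
      (fun _ _ _ _ hr => hr.1) (fun _ _ _ _ hr => hr.2.2.1)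
      (by
        rintro s β s' e β' s'' e' ⟨h1, ⟨c, h2, h3, h4⟩, h5, h6⟩ ⟨g1, ⟨c', g2, g3, g4⟩, g5, g6⟩
        refine ⟨by rw [g1, h1]; ring, ⟨c * c', by rw [g2, h2, mul_assoc], by rw [hτ, h3, g3],
          hlate _ _ _ h4⟩, (norm_add_le _ _).trans (by linarith), ?_⟩
        have e1 : τ s'.1.1 = τ s.1.1 + β := by rw [h2, hτ, h3]
        rw [e1] at g6
        have e2 : h s''.1.1 - h s.1.1 - mass d (τ s.1.1) (β + β') • u - (e + e') =
            (h s'.1.1 - h s.1.1 - mass d (τ s.1.1) β • u - e) +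
            (h s''.1.1 - h s'.1.1 - mass d (τ s.1.1 + β) β' • u - e') := by
          rw [mass_add]; module
        rw [e2, mass_add]
        exact (norm_add_le _ _).trans (by linarith))
      (by
        rintro ⟨⟨c, t⟩, hs⟩ β hβ hβt G η' hη'
        have h1 : ∃ᶠ c₁ in F β, P (c * c₁, t - β) := by
          have := hs.filter_mono (hF3 β t hβ hβt)
          rw [frequently_fmul] at this
          simpa only [P, mul_assoc] using this
        have := frequently_iff_neBot.1 h1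
        let U := Ultrafilter.of (F β ⊓ 𝓟 {c₁ | P (c * c₁, t - β)})
        have hU1 : (U : Filter M) ≤ F β := (Ultrafilter.of_le _).trans inf_le_left
        have hU2 : ∀ᶠ c₁ in (U : Filter M), P (c * c₁, t - β) :=
          le_principal_iff.1 ((Ultrafilter.of_le _).trans inf_le_right)
        obtain ⟨y, v, hv, hy, e⟩ := hVex c β U hβ hU1
        have hmβ := mass_pos (t := τ c) hd hβ
        have h2 : ∀ᶠ c₁ in (U : Filter M), ∀ ψ ∈ G, |ψ (h (c * c₁) - y)| ≤ η' := by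
          rw [eventually_all_finset]
          intro ψ _
          filter_upwards [(hy ψ).eventually (Metric.closedBall_mem_nhds _ hη')] with c₁ hc₁
          rwa [Real.dist_eq, ← map_sub] at hc₁
        have h3 : ∀ᶠ c₁ in (U : Filter M), φ (h (c * c₁)) < φ y + γ * β :=
          (hy φ).eventually (gt_mem_nhds (by have := mul_pos hγ0 hβ; linarith))
        obtain ⟨c₁, g1, g2, g3, g4, g5, g6⟩ := (hU2.and (h2.and (h3.and
          (((hF1 β).filter_mono hU1).and (((hF2 β η hη).filter_mono hU1).and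
            ((hUb c β).filter_mono hU1)))))).exists
        refine ⟨⟨(c * c₁, t - β), g1⟩, h (c * c₁) - y, ⟨rfl, ⟨c₁, rfl, g4, g5⟩, ?_, ?_⟩, g2⟩
        · have h4 := hy.norm_le ((hUb c β).filter_mono hU1)
          have h5 := norm_sub_le_norm_sub_add_norm_sub (h (c * c₁)) (h c) y
          rw [norm_sub_rev (h c)] at h5
          have h6 := mass_le hd (hτ0 c) hβ.le
          linarith
        · have e2 : h (c * c₁) - h c - mass d (τ c) β • u - (h (c * c₁) - y) =
              mass d (τ c) β • (v - u) := by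
            rw [smul_sub, ← e]; abel
          have h4 := congrArg φ e
          rw [map_sub, map_smul, smul_eq_mul] at h4
          have h5 := mass_add d (τ c) β (t - β)
          rw [add_sub_cancel] at h5
          have h6 := mul_le_mul_of_nonneg_left (hden v hv) hmβ.le
          have h7 : mass d (τ c) β * (σ - φ v) ≤
              df (c, t) - df (c * c₁, t - β) + γ * β := by
            simp only [df, hτ, g4, h5]
            linarith
          have h8 := mul_le_mul_of_nonneg_left h7 hΛ.le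
          simp only
          rw [e2, norm_smul, Real.norm_of_nonneg hmβ.le]
          linarith)
      (δ := m / (40 * d * b)) (by positivity) ⟨(c₀, ρ₀), hP₀⟩ b hb0 (half_lt_self hρ₀)
    refine ⟨c', hr4, hr3, ?_⟩
    simp only at hr1 hr2 hr5
    have h1 := hdf s'.1 s'.2 (by rw [hr1]; linarith)
    have h2 : 2 * (m / (40 * d * b)) * (2 * d) * b = m / 10 := by field_simp; ring
    have h3 : Λ * (γ * b) = m / 10 := by rw [hγ]; field_simp
    have h4 := mul_nonneg hΛ.le h1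
    rw [hr2, ← hm] at hr5
    have h5 := norm_le_insert' (h (c₀ * c') - h c₀ - m • u) e
    linarith
  obtain ⟨c₁, -, -, h1⟩ := path 1 one_pos
  obtain ⟨η, hη, h2⟩ := hL c₀ c₁ (m / 10) (by positivity)
  obtain ⟨c₂, g1, g2, g3⟩ := path η hη
  have h3 := h2 c₂ g1
  rw [g2, ← hm] at h3
  have h4 := norm_sub_le (h (c₀ * c₂) - h c₀ - m • u) (h (c₀ * c₁) - h c₀ - m • u)
  rw [sub_sub_sub_cancel_right, sub_sub_sub_cancel_right] at h4
  linarith

end Crest.Agent.FP
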