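import Crest.Agent.FP.Weak

set_option autoImplicit false
open Set Filter Topology Metric TopologicalSpace

namespace Crest.Agent.FP

variable {Z : Type*} [NormedAddCommGroup Z] [NormedSpace ℝ Z]

/-- small weak-star slices of bounded sets in a separable dual -/
theorem dent_dual [SeparableSpace (StrongDual ℝ Z)] {V : Set (StrongDual ℝ Z)} (hne : V.Nonempty)
    (hV : ∀ v ∈ V, ‖v‖ ≤ 1) {δ : ℝ} (hδ : 0 < δ) :
    ∃ (z : Z) (a : StrongDual ℝ Z) (Λ σ : ℝ), 0 < Λ ∧ (∀ v ∈ V, v z ≤ σ) ∧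
      (∀ γ > 0, ∃ v ∈ V, σ - γ < v z) ∧ ∀ v ∈ V, ‖v - a‖ ≤ δ + Λ * (σ - v z) := by
  let D₀ : Set (WeakDual ℝ Z) := closure (StrongDual.toWeakDual '' V)
  have hB := WeakDual.isCompact_closedBall (𝕜 := ℝ) (0 : StrongDual ℝ Z) 1
  have hD₀B : D₀ ⊆ WeakDual.toStrongDual ⁻¹' closedBall 0 1 := by
    refine closure_minimal ?_ (WeakDual.isClosed_closedBall _ _)
    rintro _ ⟨v, hv, rfl⟩
    simpa using hV v hv
  have hD₀ : IsCompact D₀ := hB.of_isClosed_subset isClosed_closure hD₀B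
  let Full : Set (WeakDual ℝ Z) → Prop := fun D => ∀ z : Z, ∃ x ∈ D, ∀ v ∈ V, v z ≤ x z
  let S : Set (Set (WeakDual ℝ Z)) := {D | D ⊆ D₀ ∧ IsClosed D ∧ Full D}
  have hD₀S : D₀ ∈ S := by
    refine ⟨subset_rfl, isClosed_closure, fun z => ?_⟩
    obtain ⟨x, hx, hmax⟩ := hD₀.exists_isMaxOn (hne.image _ |>.closure)
      (WeakDual.eval_continuous z).continuousOn
    exact ⟨x, hx, fun v hv => hmax (subset_closure (mem_image_of_mem _ hv))⟩
  obtain ⟨D, -, hD⟩ := zorn_superset_nonempty S (fun c hcS hc hcne => by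
    refine ⟨⋂₀ c, ⟨?_, isClosed_sInter fun D hD => (hcS hD).2.1, fun z => ?_⟩,
      fun D hD => sInter_subset_of_mem hD⟩
    · obtain ⟨D, hD⟩ := hcne
      exact (sInter_subset_of_mem hD).trans (hcS hD).1
    · have : Nonempty c := hcne.to_subtype
      let t : c → Set (WeakDual ℝ Z) := fun D => D.1 ∩ {x | ∀ v ∈ V, v z ≤ x z}
      have hcl : ∀ D, IsClosed (t D) := fun D => by
        refine (hcS D.2).2.1.inter ?_
        simp only [setOf_forall]
        exact isClosed_iInter fun v => isClosed_iInter fun _ =>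
          isClosed_le continuous_const (WeakDual.eval_continuous z)
      obtain ⟨x, hx⟩ := IsCompact.nonempty_iInter_of_directed_nonempty_isCompact_isClosed t
        (by
          intro D D'
          rcases hc.total D.2 D'.2 with h | h
          · exact ⟨D, subset_rfl, inter_subset_inter_left _ h⟩
          · exact ⟨D', inter_subset_inter_left _ h, subset_rfl⟩)
        (fun D => by
          obtain ⟨x, hx, h⟩ := (hcS D.2).2.2 z
          exact ⟨x, hx, h⟩)
        (fun D => hD₀.of_isClosed_subset (hcl D) (inter_subset_left.trans (hcS D.2).1)) hcl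
      rw [mem_iInter] at hx
      obtain ⟨D, hD⟩ := hcne
      exact ⟨x, mem_sInter.2 fun D' hD' => (hx ⟨D', hD'⟩).1, (hx ⟨D, hD⟩).2⟩) D₀ hD₀S
  obtain ⟨hDD, hDc, hDF⟩ := hD.prop
  have hDk : IsCompact D := hD₀.of_isClosed_subset hDc hDD
  have hDne : D.Nonempty := by
    obtain ⟨x, hx, -⟩ := hDF 0
    exact ⟨x, hx⟩
  obtain ⟨a, W, hW, ⟨x₀, hx₀W, hx₀D⟩, hWa⟩ := frag hDk hDne hδ
  have hnF : ¬ Full (D \ W) := by
    intro hF
    have := hD.le_of_le (y := D \ W) ⟨diff_subset.trans hDD, hDc.sdiff hW, hF⟩ diff_subset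
    exact (this hx₀D).2 hx₀W
  simp only [Full, not_forall, not_exists, not_and] at hnF
  obtain ⟨z, hz⟩ := hnF
  have hbdd : BddAbove ((fun v : StrongDual ℝ Z => v z) '' V) := by
    refine ⟨‖z‖, ?_⟩
    rintro _ ⟨v, hv, rfl⟩
    calc v z ≤ ‖v z‖ := le_abs_self _
      _ ≤ ‖v‖ * ‖z‖ := v.le_opNorm _
      _ ≤ 1 * ‖z‖ := by gcongr; exact hV v hv
      _ = _ := one_mul _
  set σ := sSup ((fun v : StrongDual ℝ Z => v z) '' V) with hσ
  have hle : ∀ v ∈ V, v z ≤ σ := fun v hv => le_csSup hbdd (mem_image_of_mem _ hv)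
  have hleD : ∀ x ∈ D, x z ≤ σ := fun x hx => by
    have : D₀ ⊆ {x | x z ≤ σ} := by
      refine closure_minimal ?_ (isClosed_le (WeakDual.eval_continuous z) continuous_const)
      rintro _ ⟨v, hv, rfl⟩
      exact hle v hv
    exact this (hDD hx)
  obtain ⟨γ₀, hγ₀, hgap⟩ : ∃ γ₀ > 0, ∀ x ∈ D \ W, x z ≤ σ - γ₀ := by
    rcases (D \ W).eq_empty_or_nonempty with h | h
    · exact ⟨1, one_pos, by simp [h]⟩
    · obtain ⟨x, hx, hmax⟩ := (hDk.of_isClosed_subset (hDc.sdiff hW) diff_subset).exists_isMaxOn h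
        (WeakDual.eval_continuous z).continuousOn
      obtain ⟨v, hv, hlt⟩ := hz x hx
      refine ⟨σ - x z, by have := hle v hv; push Not at hlt; linarith, fun y hy => ?_⟩
      have : y z ≤ x z := hmax hy
      linarith
  refine ⟨z, a, (1 + ‖a‖) / γ₀, σ, by positivity, hle, fun γ hγ => ?_, fun v hv => ?_⟩
  · obtain ⟨_, ⟨v, hv, rfl⟩, h⟩ := exists_lt_of_lt_csSup (hne.image _) (show σ - γ < σ by linarith)
    exact ⟨v, hv, h⟩
  · set Λ := (1 + ‖a‖) / γ₀ with hΛ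
    have hΛ0 : 0 < Λ := by positivity
    have hΛγ : Λ * γ₀ = 1 + ‖a‖ := by rw [hΛ]; field_simp
    have hnn : 0 ≤ δ + Λ * (σ - v z) := by have := hle v hv; have := sub_nonneg.2 this; positivity
    have key : ∀ ψ : Z, ‖ψ‖ ≤ 1 → (v - a) ψ ≤ δ + Λ * (σ - v z) := by
      intro ψ hψ
      obtain ⟨x, hxD, hx⟩ := hDF (ψ + Λ • z)
      have h1 := hx v hv
      simp only [map_add, map_smul, smul_eq_mul] at h1
      have h2 : x ψ - a ψ ≤ ‖WeakDual.toStrongDual x - a‖ := by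
        calc x ψ - a ψ = (WeakDual.toStrongDual x - a) ψ := rfl
          _ ≤ ‖(WeakDual.toStrongDual x - a) ψ‖ := le_abs_self _
          _ ≤ ‖WeakDual.toStrongDual x - a‖ * ‖ψ‖ := ContinuousLinearMap.le_opNorm _ _
          _ ≤ ‖WeakDual.toStrongDual x - a‖ * 1 := by gcongr
          _ = _ := mul_one _
      rw [ContinuousLinearMap.sub_apply]
      by_cases hxW : x ∈ W
      · have h3 := hWa x ⟨hxW, hxD⟩
        have h4 := mul_le_mul_of_nonneg_left (hleD x hxD) hΛ0.le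
        nlinarith
      · have h3 := mul_le_mul_of_nonneg_left (hgap x ⟨hxD, hxW⟩) hΛ0.le
        have h4 : ‖WeakDual.toStrongDual x - a‖ ≤ 1 + ‖a‖ := by
          refine (norm_sub_le _ _).trans ?_
          have := hD₀B (hDD hxD)
          simp only [mem_preimage, mem_closedBall, dist_zero_right] at this
          linarith
        nlinarith
    refine ContinuousLinearMap.opNorm_le_of_unit_norm hnn fun ψ hψ => ?_
    rw [Real.norm_eq_abs, abs_le]
    constructor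
    · have := key (-ψ) (by simp [hψ])
      rw [map_neg] at this
      linarith
    · exact key ψ hψ.le

/-- dentability in a separable reflexive space -/
theorem dent {X : Type*} [NormedAddCommGroup X] [NormedSpace ℝ X] [SeparableSpace X]
    (hX : Refl X) {V : Set X} (hne : V.Nonempty) (hV : ∀ v ∈ V, ‖v‖ ≤ 1) {δ : ℝ} (hδ : 0 < δ) :
    ∃ (φ : StrongDual ℝ X) (a : X) (Λ σ : ℝ), 0 < Λ ∧ (∀ v ∈ V, φ v ≤ σ) ∧
      (∀ γ > 0, ∃ v ∈ V, σ - γ < φ v) ∧ ∀ v ∈ V, ‖v - a‖ ≤ δ + Λ * (σ - φ v) := by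
  have := sep_ddual hX
  obtain ⟨φ, a, Λ, σ, h0, h1, h2, h3⟩ := dent_dual (Z := StrongDual ℝ X)
    (V := NormedSpace.inclusionInDoubleDual ℝ X '' V) (hne.image _) (by
      rintro _ ⟨v, hv, rfl⟩
      exact (NormedSpace.double_dual_bound ℝ X v).trans (hV v hv)) hδ
  obtain ⟨a, rfl⟩ := hX a
  refine ⟨φ, a, Λ, σ, h0, fun v hv => h1 _ (mem_image_of_mem _ hv), fun γ hγ => ?_,
    fun v hv => ?_⟩
  · obtain ⟨_, ⟨v, hv, rfl⟩, h⟩ := h2 γ hγ
    exact ⟨v, hv, h⟩
  · have := h3 _ (mem_image_of_mem _ hv)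
    rw [← map_sub] at this
    have e := (NormedSpace.inclusionInDoubleDualLi ℝ (E := X)).norm_map (v - a)
    exact e ▸ this

end Crest.Agent.FP
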