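import Crest.Agent.FP.Weak

set_option autoImplicit false
open Set Filter Topology Metric TopologicalSpace

namespace Crest.Agent.FP

variable {X : Type*} [NormedAddCommGroup X] [NormedSpace ℝ X]

/-- nonexpansive self-map of a closed bounded convex set -/
structure NE (K : Set X) (T : X → X) : Prop where
  ne : K.Nonempty
  cl : IsClosed K
  bd : Bornology.IsBounded K
  cv : Convex ℝ K
  mp : MapsTo T K K
  lip : ∀ a ∈ K, ∀ b ∈ K, ‖T a - T b‖ ≤ ‖a - b‖

/-- minimality -/
def Mini (K : Set X) (T : X → X) : Prop :=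
  ∀ K' ⊆ K, K'.Nonempty → IsClosed K' → Convex ℝ K' → MapsTo T K' K' → K ⊆ K'

theorem NE.le_diam {K : Set X} {T : X → X} (h : NE K T) {a b : X} (ha : a ∈ K) (hb : b ∈ K) :
    ‖a - b‖ ≤ diam K := by
  rw [← dist_eq_norm]; exact dist_le_diam_of_mem h.bd ha hb

theorem exists_min (hX : Refl X) {C : Set X} {T : X → X} (h : NE C T) :
    ∃ K ⊆ C, NE K T ∧ Mini K T := by
  let S : Set (Set X) := {K | K ⊆ C ∧ K.Nonempty ∧ IsClosed K ∧ Convex ℝ K ∧ MapsTo T K K}
  obtain ⟨K, -, hK⟩ := zorn_superset_nonempty S (fun c hcS hc hcne => by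
    refine ⟨⋂₀ c, ⟨?_, ?_, isClosed_sInter fun D hD => (hcS hD).2.2.1,
      convex_sInter fun D hD => (hcS hD).2.2.2.1,
      fun x hx => mem_sInter.2 fun D hD => (hcS hD).2.2.2.2 (mem_sInter.1 hx D hD)⟩,
      fun D hD => sInter_subset_of_mem hD⟩
    · obtain ⟨D, hD⟩ := hcne
      exact (sInter_subset_of_mem hD).trans (hcS hD).1
    · have : Nonempty c := hcne.to_subtype
      have hG : (⨅ D : c, 𝓟 D.1).NeBot := by
        refine iInf_neBot_of_directed' ?_ fun D => principal_neBot_iff.2 (hcS D.2).2.1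
        intro D D'
        rcases hc.total D.2 D'.2 with h | h
        · exact ⟨D, le_rfl, principal_mono.2 h⟩
        · exact ⟨D', principal_mono.2 h, le_rfl⟩
      let U := Ultrafilter.of (⨅ D : c, 𝓟 D.1)
      have hU : ∀ D ∈ c, ∀ᶠ x in (U : Filter X), x ∈ D := fun D hD =>
        le_principal_iff.1 ((Ultrafilter.of_le _).trans (iInf_le (fun D : c => 𝓟 D.1) ⟨D, hD⟩))
      obtain ⟨R, hR⟩ := h.bd.exists_norm_le
      obtain ⟨D, hD⟩ := hcne
      obtain ⟨x, hx⟩ := exists_wlim hX U id R ((hU D hD).mono fun x hx => hR x ((hcS hD).1 hx))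
      exact ⟨x, mem_sInter.2 fun D hD => hx.mem (hcS hD).2.2.2.1 (hcS hD).2.2.1 (hU D hD)⟩)
    C ⟨subset_rfl, h.ne, h.cl, h.cv, h.mp⟩
  obtain ⟨h1, h2, h3, h4, h5⟩ := hK.prop
  exact ⟨K, h1, ⟨h2, h3, h.bd.subset h1, h4, h5, fun a ha b hb => h.lip a (h1 ha) b (h1 hb)⟩,
    fun K' g1 g2 g3 g4 g5 => hK.le_of_le ⟨g1.trans h1, g2, g3, g4, g5⟩ g1⟩

theorem diam_le_of_center {K : Set X} {T : X → X} (h : NE K T) (hm : Mini K T) {z : X}
    (hz : z ∈ K) {r : ℝ} (hr : ∀ y ∈ K, ‖z - y‖ ≤ r) : diam K ≤ r := by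
  have h1 : K ⊆ closure (convexHull ℝ (T '' K)) := by
    have hs : closure (convexHull ℝ (T '' K)) ⊆ K :=
      closure_minimal (convexHull_min h.mp.image_subset h.cv) h.cl
    exact hm _ hs ((h.ne.image T).convexHull.closure) isClosed_closure
      (convex_convexHull ℝ _).closure
      fun x hx => subset_closure (subset_convexHull ℝ _ (mem_image_of_mem _ (hs hx)))
  have h2 : K ⊆ K ∩ ⋂ y ∈ K, closedBall y r := by
    refine hm _ inter_subset_left ⟨z, hz, ?_⟩
      (h.cl.inter (isClosed_biInter fun _ _ => isClosed_closedBall))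
      (h.cv.inter (convex_iInter₂ fun _ _ => convex_closedBall _ _)) fun p hp => ⟨h.mp hp.1, ?_⟩
    · simpa [dist_eq_norm] using hr
    · have h3 : T '' K ⊆ closedBall (T p) r := by
        rintro _ ⟨y, hy, rfl⟩
        have := mem_iInter₂.1 hp.2 y hy
        rw [mem_closedBall, dist_eq_norm] at this ⊢
        rw [norm_sub_rev] at this
        exact (h.lip y hy p hp.1).trans this
      have h4 := h1.trans (closure_minimal (convexHull_min h3 (convex_closedBall _ _))
        isClosed_closedBall)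
      exact mem_iInter₂.2 fun y hy => mem_closedBall_comm.1 (h4 hy)
  have h0 : 0 ≤ r := by simpa using hr z hz
  exact diam_le_of_forall_dist_le h0 fun x hx y hy => mem_iInter₂.1 (h2 hx).2 y hy

/-- Goebel--Karlovitz lemma -/
theorem gk (hX : Refl X) {K : Set X} {T : X → X} (h : NE K T) (hm : Mini K T) {p : X}
    (hp : p ∈ K) {ε : ℝ} (hε : 0 < ε) :
    ∃ η > 0, ∀ y ∈ K, ‖y - T y‖ ≤ η → diam K - ε ≤ ‖y - p‖ := by
  by_contra hn
  push Not at hn
  choose y hyK hy1 hy2 using fun n : ℕ => hn (1 / ((n : ℝ) + 1)) (by positivity)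
  let U := hyperfilter ℕ
  have hsmall : ∀ γ > 0, ∀ᶠ n in (U : Filter ℕ), ‖y n - T (y n)‖ ≤ γ := fun γ hγ => by
    have := (tendsto_one_div_add_atTop_nhds_zero_nat (𝕜 := ℝ)).eventually (gt_mem_nhds hγ)
    exact (this.filter_mono Nat.hyperfilter_le_atTop).mono fun n hn => (hy1 n).trans hn.le
  let K' : Set X := {q ∈ K | ∀ γ > 0, ∀ᶠ n in (U : Filter ℕ), ‖y n - q‖ ≤ diam K - ε + γ}
  have hK' : K ⊆ K' := by
    refine hm K' (fun q hq => hq.1) ⟨p, hp, fun γ hγ => Eventually.of_forall fun n => by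
      have := hy2 n; linarith⟩ ?_ ?_ ?_
    · refine isClosed_of_closure_subset fun q hq => ⟨closure_minimal (fun q hq => hq.1) h.cl hq,
        fun γ hγ => ?_⟩
      obtain ⟨q', hq', hd⟩ := Metric.mem_closure_iff.1 hq (γ / 2) (half_pos hγ)
      filter_upwards [hq'.2 (γ / 2) (half_pos hγ)] with n hn
      rw [dist_comm, dist_eq_norm] at hd
      have := norm_sub_le_norm_sub_add_norm_sub (y n) q' q
      linarith
    · intro a ha b hb s t hs ht hst
      refine ⟨h.cv ha.1 hb.1 hs ht hst, fun γ hγ => ?_⟩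
      filter_upwards [ha.2 γ hγ, hb.2 γ hγ] with n h1 h2
      have h3 := convex_closedBall (y n) (diam K - ε + γ)
        (show a ∈ _ by rw [mem_closedBall, dist_comm, dist_eq_norm]; exact h1)
        (show b ∈ _ by rw [mem_closedBall, dist_comm, dist_eq_norm]; exact h2) hs ht hst
      rwa [mem_closedBall, dist_comm, dist_eq_norm] at h3
    · intro q hq
      refine ⟨h.mp hq.1, fun γ hγ => ?_⟩
      filter_upwards [hq.2 (γ / 2) (half_pos hγ), hsmall (γ / 2) (half_pos hγ)] with n h1 h2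
      have := norm_sub_le_norm_sub_add_norm_sub (y n) (T (y n)) (T q)
      have := h.lip _ (hyK n) _ hq.1
      linarith
  obtain ⟨R, hR⟩ := h.bd.exists_norm_le
  obtain ⟨z, hz⟩ := exists_wlim hX U y R (Eventually.of_forall fun n => hR _ (hyK n))
  have hzK := hz.mem h.cv h.cl (Eventually.of_forall hyK)
  have := diam_le_of_center h hm hzK (r := diam K - ε + ε / 2) fun q hq =>
    hz.norm_le ((hK' hq).2 _ (half_pos hε))
  linarith

/-- the resolvent -/
theorem exists_J [CompleteSpace X] {K : Set X} {T : X → X} (h : NE K T) {l : ℝ} (h0 : 0 < l)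
    (h1 : l ≤ 1) : ∃ J : X → X, MapsTo J K K ∧ (∀ a ∈ K, ∀ b ∈ K, ‖J a - J b‖ ≤ ‖a - b‖) ∧
      (∀ a ∈ K, ‖J a - T (J a)‖ ≤ l * diam K) ∧ ∀ a ∈ K, l * ‖J a - a‖ ≤ ‖a - T a‖ := by
  have hex : ∀ u ∈ K, ∃ y ∈ K, y = l • u + (1 - l) • T y := by
    intro u hu
    let g : X → X := fun y => l • u + (1 - l) • T y
    have hg : MapsTo g K K := fun y hy => h.cv hu (h.mp hy) h0.le (by linarith) (by ring)
    have hc : ContractingWith ⟨1 - l, by linarith⟩ (hg.restrict g K K) := by
      refine ⟨NNReal.coe_lt_coe.1 (show (1 - l : ℝ) < 1 by linarith), LipschitzWith.of_dist_le_mul fun a b => ?_⟩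
      simp only [Subtype.dist_eq, MapsTo.val_restrict_apply, dist_eq_norm, g, NNReal.coe_mk]
      rw [add_sub_add_left_eq_sub, ← smul_sub, norm_smul, Real.norm_of_nonneg (by linarith)]
      exact mul_le_mul_of_nonneg_left (h.lip _ a.2 _ b.2) (by linarith)
    obtain ⟨y, hy, hfix, -⟩ := hc.exists_fixedPoint' h.cl.isComplete hg hu (edist_ne_top _ _)
    exact ⟨y, hy, hfix.symm⟩
  choose! J hJ1 hJ2 using hex
  refine ⟨J, hJ1, fun a ha b hb => ?_, fun a ha => ?_, fun a ha => ?_⟩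
  · have e : J a - J b = l • (a - b) + (1 - l) • (T (J a) - T (J b)) := by
      conv_lhs => rw [hJ2 a ha, hJ2 b hb]
      module
    have h2 := norm_add_le (l • (a - b)) ((1 - l) • (T (J a) - T (J b)))
    rw [← e, norm_smul, norm_smul, Real.norm_of_nonneg h0.le,
      Real.norm_of_nonneg (by linarith)] at h2
    have h3 := mul_le_mul_of_nonneg_left (h.lip _ (hJ1 a ha) _ (hJ1 b hb))
      (show 0 ≤ 1 - l by linarith)
    exact le_of_mul_le_mul_left (by linarith) h0
  · have e : J a - T (J a) = l • (a - T (J a)) := by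
      conv_lhs => arg 1; rw [hJ2 a ha]
      module
    rw [e, norm_smul, Real.norm_of_nonneg h0.le]
    exact mul_le_mul_of_nonneg_left (h.le_diam ha (h.mp (hJ1 a ha))) h0.le
  · have e : J a - a = (1 - l) • (T (J a) - T a) + (1 - l) • (T a - a) := by
      conv_lhs => arg 1; rw [hJ2 a ha]
      module
    have h2 := norm_add_le ((1 - l) • (T (J a) - T a)) ((1 - l) • (T a - a))
    rw [← e, norm_smul, norm_smul, Real.norm_of_nonneg (by linarith), norm_sub_rev (T a) a] at h2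
    have h3 := mul_le_mul_of_nonneg_left (h.lip _ (hJ1 a ha) _ ha)
      (show 0 ≤ 1 - l by linarith)
    have := norm_nonneg (a - T a)
    nlinarith

end Crest.Agent.FP
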