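import Crest.Agent.FP.Core
import Crest.Agent.FP.GK

set_option autoImplicit false
open Set Filter Topology Metric TopologicalSpace

namespace Crest.Agent.FP

variable {X : Type*} [NormedAddCommGroup X] [NormedSpace ℝ X]

/-- admissible contexts -/
@[ext] structure Ctx (K : Set X) (T : X → X) where
  c : X → X
  τ : ℝ
  nn : 0 ≤ τ
  mp : MapsTo c K K
  lip : ∀ a ∈ K, ∀ b ∈ K, ‖c a - c b‖ ≤ Real.exp (-τ) * ‖a - b‖
  adm : ∀ ε > 0, ∃ η > 0, ∀ f ∈ K, ‖f - T f‖ ≤ η →
    ‖c f - f‖ ≤ (1 - Real.exp (-τ)) * diam K + ε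

instance {K : Set X} {T : X → X} : Mul (Ctx K T) where
  mul c c' :=
    { c := c.c ∘ c'.c
      τ := c.τ + c'.τ
      nn := add_nonneg c.nn c'.nn
      mp := c.mp.comp c'.mp
      lip := fun a ha b hb => by
        have h1 := c.lip _ (c'.mp ha) _ (c'.mp hb)
        have h2 := mul_le_mul_of_nonneg_left (c'.lip a ha b hb) (Real.exp_pos (-c.τ)).le
        rw [neg_add, Real.exp_add, mul_assoc]
        exact h1.trans h2
      adm := fun ε hε => by
        obtain ⟨η, hη, h1⟩ := c.adm (ε / 2) (half_pos hε)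
        obtain ⟨η', hη', h2⟩ := c'.adm (ε / 2) (half_pos hε)
        refine ⟨min η η', lt_min hη hη', fun f hf hT => ?_⟩
        have h3 := h1 f hf (hT.trans (min_le_left _ _))
        have h4 := mul_le_mul_of_nonneg_left (h2 f hf (hT.trans (min_le_right _ _)))
          (Real.exp_pos (-c.τ)).le
        have h5 := c.lip _ (c'.mp hf) _ hf
        have h6 := norm_sub_le_norm_sub_add_norm_sub (c.c (c'.c f)) (c.c f) f
        have h7 : Real.exp (-c.τ) ≤ 1 := Real.exp_le_one_iff.2 (by linarith [c.nn])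
        have h8 : Real.exp (-c.τ) * (ε / 2) ≤ 1 * (ε / 2) :=
          mul_le_mul_of_nonneg_right h7 (half_pos hε).le
        rw [neg_add, Real.exp_add]
        simp only [Function.comp]
        linarith }

theorem Ctx.mul_c {K : Set X} {T : X → X} (c c' : Ctx K T) (f : X) :
    (c * c').c f = c.c (c'.c f) := rfl

theorem Ctx.mul_τ {K : Set X} {T : X → X} (c c' : Ctx K T) : (c * c').τ = c.τ + c'.τ := rfl

instance {K : Set X} {T : X → X} : Semigroup (Ctx K T) where
  mul_assoc a b c := Ctx.ext rfl (add_assoc _ _ _)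

/-- late contexts -/
def Ctx.late {K : Set X} {T : X → X} (η : ℝ) (c : Ctx K T) : Prop :=
  ∀ f ∈ K, ‖c.c f - T (c.c f)‖ ≤ η

theorem exists_ctx [CompleteSpace X] {K : Set X} {T : X → X} (h : NE K T) {t η : ℝ} (ht : 0 ≤ t)
    (hη : 0 < η) : ∃ c : Ctx K T, c.τ = t ∧ c.late η := by
  have hd : 0 ≤ diam K := diam_nonneg
  set l := min 1 (η / (diam K + 1)) with hl
  have hl0 : 0 < l := lt_min one_pos (by positivity)
  obtain ⟨J, h1, h2, h3, h4⟩ := exists_J h hl0 (min_le_left _ _)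
  obtain ⟨v, hv⟩ := h.ne
  set s := Real.exp (-t) with hs
  have hs0 : 0 < s := Real.exp_pos _
  have hs1 : s ≤ 1 := Real.exp_le_one_iff.2 (by linarith)
  have hm : ∀ f ∈ K, (1 - s) • v + s • f ∈ K := fun f hf =>
    h.cv hv hf (by linarith) hs0.le (by ring)
  refine ⟨⟨fun f => J ((1 - s) • v + s • f), t, ht, fun f hf => h1 (hm f hf),
    fun a ha b hb => ?_, fun ε hε => ⟨l * ε, by positivity, fun f hf hT => ?_⟩⟩, rfl,
    fun f hf => ?_⟩
  · refine (h2 _ (hm a ha) _ (hm b hb)).trans ?_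
    rw [add_sub_add_left_eq_sub, ← smul_sub, norm_smul, Real.norm_of_nonneg hs0.le]
  · have g1 := h2 _ (hm f hf) _ hf
    have e : (1 - s) • v + s • f - f = (1 - s) • (v - f) := by module
    rw [e, norm_smul, Real.norm_of_nonneg (by linarith)] at g1
    have g2 := mul_le_mul_of_nonneg_left (h.le_diam hv hf) (show 0 ≤ 1 - s by linarith)
    have g3 := le_of_mul_le_mul_left ((h4 f hf).trans hT) hl0
    have g4 := norm_sub_le_norm_sub_add_norm_sub (J ((1 - s) • v + s • f)) (J f) f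
    linarith
  · refine (h3 _ (hm f hf)).trans ?_
    have g1 : l * (diam K + 1) ≤ η := by
      rw [← le_div_iff₀ (by positivity)]; exact min_le_right _ _
    nlinarith

theorem diam_eq_zero [CompleteSpace X] [SeparableSpace X] (hX : Refl X) {K : Set X} {T : X → X}
    (h : NE K T) (hm : Mini K T) : diam K = 0 := by
  by_contra hn
  have hd : 0 < diam K := lt_of_le_of_ne diam_nonneg (Ne.symm hn)
  let L : ℝ → Filter (Ctx K T) := fun t => ⨅ η : Ioi (0 : ℝ), 𝓟 {c | c.τ = t ∧ c.late η}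
  have hL1 : ∀ t, ∀ η > 0, ∀ᶠ c in L t, c.τ = t ∧ c.late η := fun t η hη =>
    le_principal_iff.1 (iInf_le (fun η : Ioi (0 : ℝ) => 𝓟 {c : Ctx K T | c.τ = t ∧ c.late η})
      ⟨η, hη⟩)
  have hlate : ∀ η (c c' : Ctx K T), c.late η → (c * c').late η := fun η c c' hc f hf =>
    hc _ (c'.mp hf)
  obtain ⟨F, hF1, hF2, hF3⟩ := exists_fsemigroup L (fun t ht => by
    have : Nonempty (Ioi (0 : ℝ)) := ⟨⟨1, by simp⟩⟩
    refine iInf_neBot_of_directed' ?_ fun η => principal_neBot_iff.2 (exists_ctx h ht.le η.2)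
    intro η η'
    rcases le_total η.1 η'.1 with g | g
    · exact ⟨η, le_rfl, principal_mono.2 fun c hc => ⟨hc.1, fun f hf => (hc.2 f hf).trans g⟩⟩
    · exact ⟨η', principal_mono.2 fun c hc => ⟨hc.1, fun f hf => (hc.2 f hf).trans g⟩, le_rfl⟩)
    (fun ρ t _ _ => le_iInf fun η => le_principal_iff.2 (by
      have : ∀ᶠ c in fmul (L ρ) (L t), c.τ = ρ + t ∧ c.late η := by
        rw [eventually_fmul]
        filter_upwards [hL1 ρ η η.2] with c hc
        filter_upwards [hL1 t η η.2] with c' hc'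
        exact ⟨by rw [Ctx.mul_τ, hc.1, hc'.1], hlate _ _ _ hc.2⟩
      exact this))
  obtain ⟨v, hv⟩ := h.ne
  choose z hz0 hz using fun n : ℕ => exists_ctx h (t := 0) (η := 1 / ((n : ℝ) + 1)) le_rfl
    (by positivity)
  let x : ℕ → X := fun n => (z n).c v
  have hxK : ∀ n, x n ∈ K := fun n => (z n).mp hv
  let U := hyperfilter ℕ
  have hsmall : ∀ γ > 0, ∀ᶠ n in (U : Filter ℕ), ‖x n - T (x n)‖ ≤ γ := fun γ hγ => by
    have := (tendsto_one_div_add_atTop_nhds_zero_nat (𝕜 := ℝ)).eventually (gt_mem_nhds hγ)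
    exact (this.filter_mono Nat.hyperfilter_le_atTop).mono fun n hn => (hz n v hv).trans hn.le
  obtain ⟨R, hR⟩ := h.bd.exists_norm_le
  choose w hw using fun c : Ctx K T => exists_wlim hX U (fun n => c.c (x n)) R
    (Eventually.of_forall fun n => hR _ (c.mp (hxK n)))
  have hwK : ∀ c, w c ∈ K := fun c =>
    (hw c).mem h.cv h.cl (Eventually.of_forall fun n => c.mp (hxK n))
  refine core hX (fun c : Ctx K T => c.τ) (fun c => c.nn) Ctx.mul_τ Ctx.late hlate F hF2
    (fun ρ => ((hL1 ρ 1 one_pos).filter_mono (hF1 ρ)).mono fun c hc => hc.1)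
    (fun ρ η hη => ((hL1 ρ η hη).filter_mono (hF1 ρ)).mono fun c hc => hc.2) hF3 hd w
    (fun c c' => ?_) (fun c c₁ ε hε => ?_)
  · refine le_of_forall_pos_le_add fun ε hε => ?_
    obtain ⟨η, hη, h1⟩ := c'.adm ε hε
    have h2 := ((hw (c * c')).sub (hw c)).norm_le (y := 0) (r := mass (diam K) c.τ c'.τ + ε) (by
      filter_upwards [hsmall η hη] with n hn
      have h3 := c.lip _ (c'.mp (hxK n)) _ (hxK n)
      have h4 := mul_le_mul_of_nonneg_left (h1 _ (hxK n) hn) (Real.exp_pos (-c.τ)).le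
      have h7 : Real.exp (-c.τ) ≤ 1 := Real.exp_le_one_iff.2 (by linarith [c.nn])
      have h8 : Real.exp (-c.τ) * ε ≤ 1 * ε := mul_le_mul_of_nonneg_right h7 hε.le
      rw [sub_zero, Ctx.mul_c, mass]
      linarith)
    rwa [sub_zero] at h2
  · obtain ⟨η, hη, h1⟩ := c.adm (ε / 2) (half_pos hε)
    obtain ⟨η', hη', h2⟩ := gk hX h hm (hwK (c * c₁)) (half_pos hε)
    refine ⟨min η η', lt_min hη hη', fun c' hc' => ?_⟩
    have h3 := h1 _ (c'.mp hv) ((hc' v hv).trans (min_le_left _ _))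
    have h4 := h2 _ (c'.mp hv) ((hc' v hv).trans (min_le_right _ _))
    have h5 := (hw (c * c')).norm_le (y := (c * c').c v)
      (r := Real.exp (-(c * c').τ) * diam K) (Eventually.of_forall fun n =>
        ((c * c').lip _ (hxK n) _ hv).trans
          (mul_le_mul_of_nonneg_left (h.le_diam (hxK n) hv) (Real.exp_pos _).le))
    rw [Ctx.mul_τ, neg_add, Real.exp_add, Ctx.mul_c, norm_sub_rev] at h5
    have h6 := norm_sub_le_norm_sub_add_norm_sub (c'.c v) (c.c (c'.c v)) (w (c * c₁))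
    have h7 := norm_sub_le_norm_sub_add_norm_sub (c.c (c'.c v)) (w (c * c')) (w (c * c₁))
    rw [norm_sub_rev] at h3
    rw [mass]
    linarith

theorem fixed_sep [CompleteSpace X] [SeparableSpace X] (hX : Refl X) {C : Set X} {T : X → X}
    (h : NE C T) : ∃ x ∈ C, T x = x := by
  obtain ⟨K, hKC, h1, h2⟩ := exists_min hX h
  obtain ⟨v, hv⟩ := h1.ne
  have := h1.le_diam (h1.mp hv) hv
  rw [diam_eq_zero hX h1 h2, norm_le_zero_iff, sub_eq_zero] at this
  exact ⟨v, hKC hv, this⟩

theorem exists_sep {C : Set X} {T : X → X} (h : NE C T) :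
    ∃ K ⊆ C, NE K T ∧ IsSeparable K := by
  obtain ⟨p, hp⟩ := h.ne
  have hT : ContinuousOn T C := (LipschitzOnWith.of_dist_le_mul (K := 1) fun a ha b hb => by
    simpa [dist_eq_norm] using h.lip a ha b hb).continuousOn
  let A : ℕ → Set X := fun n => Nat.rec {p} (fun _ B => convexHull ℝ (B ∪ T '' B)) n
  have hA : ∀ n, A (n + 1) = convexHull ℝ (A n ∪ T '' A n) := fun n => rfl
  have hAC : ∀ n, A n ⊆ C ∧ IsSeparable (A n) ∧ Convex ℝ (A n) := by
    intro n
    induction n with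
    | zero => exact ⟨singleton_subset_iff.2 hp, (finite_singleton p).isSeparable,
        convex_singleton p⟩
    | succ n ih =>
      refine ⟨convexHull_min (union_subset ih.1 ((image_mono ih.1).trans h.mp.image_subset)) h.cv,
        ?_, convex_convexHull _ _⟩
      exact ((ih.2.1.union ((hT.mono ih.1).isSeparable_image ih.2.1)).span (R := ℝ)).mono
        (convexHull_min Submodule.subset_span (Submodule.convex _))
  have hmono : Monotone A := monotone_nat_of_le_succ fun n =>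
    subset_union_left.trans (subset_convexHull ℝ _)
  have hUC : ⋃ n, A n ⊆ C := iUnion_subset fun n => (hAC n).1
  have hKC : closure (⋃ n, A n) ⊆ C := closure_minimal hUC h.cl
  refine ⟨closure (⋃ n, A n), hKC, ⟨⟨p, subset_closure (mem_iUnion.2 ⟨0, rfl⟩)⟩, isClosed_closure,
    h.bd.subset hKC, (hmono.directed_le.convex_iUnion fun n => (hAC n).2.2).closure, ?_,
    fun a ha b hb => h.lip a (hKC ha) b (hKC hb)⟩, (IsSeparable.iUnion fun n => (hAC n).2.1).closure⟩
  intro x hx
  refine ((hT.mono hKC) x hx).mono subset_closure |>.mem_closure hx ?_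
  intro y hy
  obtain ⟨n, hn⟩ := mem_iUnion.1 hy
  exact mem_iUnion.2 ⟨n + 1, subset_convexHull ℝ _ (Or.inr (mem_image_of_mem _ hn))⟩

theorem fixed [CompleteSpace X] (hX : Refl X) {C : Set X} {T : X → X} (h : NE C T) :
    ∃ x ∈ C, T x = x := by
  classical
  obtain ⟨K, hKC, hK, hs⟩ := exists_sep h
  let Y := (Submodule.span ℝ K).topologicalClosure
  have hYc : IsClosed (Y : Set X) := Submodule.isClosed_topologicalClosure _
  have hYs : IsSeparable (Y : Set X) := (hs.span (R := ℝ)).closure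
  have hKY : ∀ x ∈ K, x ∈ Y := fun x hx => subset_closure (Submodule.subset_span hx)
  have : SeparableSpace Y := hYs.separableSpace
  have : CompleteSpace Y := hYc.completeSpace_coe
  let T' : Y → Y := fun y => if hy : y.1 ∈ K then ⟨T y.1, hKY _ (hK.mp hy)⟩ else y
  have hT' : ∀ y : Y, y.1 ∈ K → (T' y).1 = T y.1 := fun y hy => by simp only [T', dif_pos hy]
  obtain ⟨x, hx, hx'⟩ := fixed_sep (refl_sub hX Y hYc) (C := Subtype.val ⁻¹' K) (T := T') ⟨by
    obtain ⟨p, hp⟩ := hK.ne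
    exact ⟨⟨p, hKY p hp⟩, hp⟩, hK.cl.preimage continuous_subtype_val, by
      obtain ⟨R, hR⟩ := hK.bd.exists_norm_le
      exact isBounded_iff_forall_norm_le.2 ⟨R, fun y hy => hR y.1 hy⟩,
    hK.cv.linear_preimage Y.subtype, fun y hy => by
      rw [mem_preimage, hT' y hy]; exact hK.mp hy, fun a ha b hb => by
      have := hK.lip _ ha _ hb
      rw [← hT' a ha, ← hT' b hb] at this
      exact this⟩
  exact ⟨x.1, hKC hx, by rw [← hT' x hx, hx']⟩

end Crest.Agent.FP
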