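import Mathlib

set_option autoImplicit false
open Set Filter Topology Metric TopologicalSpace

namespace Crest.Agent.FP

/-- reflexivity -/
abbrev Refl (X : Type*) [NormedAddCommGroup X] [NormedSpace ℝ X] : Prop :=
  Function.Surjective (NormedSpace.inclusionInDoubleDual ℝ X)

variable {X : Type*} [NormedAddCommGroup X] [NormedSpace ℝ X]

/-- weak limit along a filter -/
def WLim {α : Type*} (U : Filter α) (f : α → X) (x : X) : Prop :=
  ∀ φ : StrongDual ℝ X, Tendsto (fun a => φ (f a)) U (𝓝 (φ x))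

theorem exists_wlim (hX : Refl X) {α : Type*} (U : Ultrafilter α) (f : α → X) (R : ℝ)
    (h : ∀ᶠ a in U, ‖f a‖ ≤ R) : ∃ x, WLim (U : Filter α) f x := by
  let g : α → WeakDual ℝ (StrongDual ℝ X) := fun a =>
    StrongDual.toWeakDual (NormedSpace.inclusionInDoubleDual ℝ X (f a))
  have hc := WeakDual.isCompact_closedBall (𝕜 := ℝ) (0 : StrongDual ℝ (StrongDual ℝ X)) R
  obtain ⟨Φ, -, hΦ⟩ := hc.ultrafilter_le_nhds (U.map g) (by
    rw [Ultrafilter.coe_map, le_principal_iff, mem_map]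
    filter_upwards [h] with a ha
    simp only [mem_preimage, mem_closedBall, dist_zero_right, g]
    exact (NormedSpace.double_dual_bound ℝ X (f a)).trans ha)
  obtain ⟨x, hx⟩ := hX (WeakDual.toStrongDual Φ)
  refine ⟨x, fun φ => ?_⟩
  have h1 : Tendsto g U (𝓝 Φ) := hΦ
  have h2 := ((WeakDual.eval_continuous φ).tendsto Φ).comp h1
  have h3 : Φ φ = φ x := by
    have := congrArg (fun Ψ : StrongDual ℝ (StrongDual ℝ X) => Ψ φ) hx
    exact this.symm
  rw [h3] at h2
  exact h2

theorem WLim.mem {α : Type*} {U : Filter α} [U.NeBot] {f : α → X} {x : X} (hx : WLim U f x)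
    {K : Set X} (hc : Convex ℝ K) (hcl : IsClosed K) (h : ∀ᶠ a in U, f a ∈ K) : x ∈ K := by
  by_contra hn
  obtain ⟨φ, u, h1, h2⟩ := geometric_hahn_banach_closed_point hc hcl hn
  have := le_of_tendsto (hx φ) (h.mono fun a ha => (h1 _ ha).le)
  linarith

theorem WLim.norm_le {α : Type*} {U : Filter α} [U.NeBot] {f : α → X} {x : X} (hx : WLim U f x)
    {y : X} {r : ℝ} (h : ∀ᶠ a in U, ‖f a - y‖ ≤ r) : ‖x - y‖ ≤ r := by
  have := hx.mem (convex_closedBall y r) isClosed_closedBall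
    (h.mono fun a ha => by simpa [dist_eq_norm] using ha)
  simpa [dist_eq_norm] using this

theorem WLim.sub {α : Type*} {U : Filter α} {f g : α → X} {x y : X} (hx : WLim U f x)
    (hy : WLim U g y) : WLim U (fun a => f a - g a) (x - y) := fun φ => by
  simpa only [map_sub] using (hx φ).sub (hy φ)

theorem exists_dual_closed_sub (Y : Submodule ℝ X) (hY : IsClosed (Y : Set X)) {x : X}
    (hx : x ∉ Y) : ∃ φ : StrongDual ℝ X, (∀ y ∈ Y, φ y = 0) ∧ φ x ≠ 0 := by
  obtain ⟨φ, u, h1, h2⟩ := geometric_hahn_banach_closed_point Y.convex hY hx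
  have h0 : 0 < u := by simpa using h1 0 Y.zero_mem
  refine ⟨φ, fun y hy => ?_, by linarith⟩
  by_contra hne
  have := h1 _ (Y.smul_mem (u / φ y) hy)
  rw [map_smul, smul_eq_mul, div_mul_cancel₀ _ hne] at this
  exact lt_irrefl _ this

theorem refl_sub (hX : Refl X) (Y : Submodule ℝ X) (hY : IsClosed (Y : Set X)) : Refl Y := by
  intro Φ
  let ρ : StrongDual ℝ X →L[ℝ] StrongDual ℝ Y :=
    (ContinuousLinearMap.compL ℝ Y X ℝ).flip Y.subtypeL
  obtain ⟨x, hx⟩ := hX (Φ.comp ρ)
  have hx' : ∀ φ : StrongDual ℝ X, φ x = Φ (ρ φ) := fun φ =>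
    congrArg (fun Ψ : StrongDual ℝ (StrongDual ℝ X) => Ψ φ) hx
  have hxY : x ∈ Y := by
    by_contra hn
    obtain ⟨φ, h1, h2⟩ := exists_dual_closed_sub Y hY hn
    have : ρ φ = 0 := by
      ext y
      exact h1 y y.2
    rw [hx', this, map_zero] at h2
    exact h2 rfl
  refine ⟨⟨x, hxY⟩, ?_⟩
  ext ψ
  obtain ⟨φ, hφ, -⟩ := exists_extension_norm_eq Y ψ
  have : ρ φ = ψ := by
    ext y
    exact hφ y
  rw [NormedSpace.dual_def, ← hφ, hx', this]

theorem sep_dual [SeparableSpace X] (hX : Refl X) : SeparableSpace (StrongDual ℝ X) := by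
  have : Nonempty X := ⟨0⟩
  let u := denseSeq X
  choose φ hφ1 hφ2 using fun n => exists_dual_vector'' ℝ (u n)
  let W := (Submodule.span ℝ (range φ)).topologicalClosure
  have hW : IsSeparable (W : Set (StrongDual ℝ X)) :=
    ((countable_range φ).isSeparable.span (R := ℝ)).closure
  rw [← isSeparable_univ_iff]
  refine hW.mono fun ψ _ => ?_
  by_contra hn
  obtain ⟨Φ, h1, h2⟩ := exists_dual_closed_sub W (Submodule.isClosed_topologicalClosure _) hn
  obtain ⟨x, rfl⟩ := hX Φ
  have hx : x = 0 := by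
    rw [← norm_le_zero_iff]
    refine le_of_forall_pos_le_add fun ε hε => ?_
    obtain ⟨n, hn⟩ := (denseRange_denseSeq X).exists_dist_lt x (half_pos hε)
    have h3 : φ n x = 0 := h1 _ (Submodule.le_topologicalClosure _
      (Submodule.subset_span (mem_range_self n)))
    have h4 : ‖u n‖ ≤ ‖u n - x‖ := by
      have : (‖u n‖ : ℝ) = φ n (u n - x) := by
        rw [map_sub, h3, sub_zero]; exact (hφ2 n).symm
      rw [this]
      calc φ n (u n - x) ≤ ‖φ n (u n - x)‖ := le_abs_self _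
        _ ≤ ‖φ n‖ * ‖u n - x‖ := (φ n).le_opNorm _
        _ ≤ 1 * ‖u n - x‖ := by gcongr; exact hφ1 n
        _ = _ := one_mul _
    rw [dist_comm, dist_eq_norm] at hn
    have h5 : ‖x‖ ≤ ‖u n‖ + ‖u n - x‖ := by
      have := norm_sub_le (u n) (u n - x)
      simpa using this
    have hn' : ‖u n - x‖ < ε / 2 := hn
    linarith
  rw [hx] at h2
  simp at h2

theorem sep_ddual [SeparableSpace X] (hX : Refl X) :
    SeparableSpace (StrongDual ℝ (StrongDual ℝ X)) :=
  hX.denseRange.separableSpace (NormedSpace.inclusionInDoubleDual ℝ X).continuous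

/-- fragmentation of weak-star compact sets in a separable dual -/
theorem frag [SeparableSpace (StrongDual ℝ X)] {D : Set (WeakDual ℝ X)} (hD : IsCompact D)
    (hne : D.Nonempty) {δ : ℝ} (hδ : 0 < δ) :
    ∃ (a : StrongDual ℝ X) (W : Set (WeakDual ℝ X)), IsOpen W ∧ (W ∩ D).Nonempty ∧
      ∀ x ∈ W ∩ D, ‖WeakDual.toStrongDual x - a‖ ≤ δ := by
  have : Nonempty (StrongDual ℝ X) := ⟨0⟩
  let u := denseSeq (StrongDual ℝ X)
  have : CompactSpace D := isCompact_iff_compactSpace.1 hD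
  have : Nonempty D := hne.to_subtype
  let A : ℕ → Set D := fun n => Subtype.val ⁻¹' (WeakDual.toStrongDual ⁻¹' closedBall (u n) δ)
  have hA : ∀ n, IsClosed (A n) := fun n =>
    (WeakDual.isClosed_closedBall (u n) δ).preimage continuous_subtype_val
  have hU : ⋃ n, A n = univ := by
    refine eq_univ_of_forall fun x => ?_
    obtain ⟨n, hn⟩ := (denseRange_denseSeq (StrongDual ℝ X)).exists_dist_lt
      (WeakDual.toStrongDual x.1) hδ
    exact mem_iUnion.2 ⟨n, hn.le⟩
  obtain ⟨n, x, hx⟩ := nonempty_interior_of_iUnion_of_closed hA hU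
  obtain ⟨W, hW, hWe⟩ := isOpen_induced_iff.1 (isOpen_interior (s := A n))
  refine ⟨u n, W, hW, ⟨x.1, by rw [← hWe] at hx; exact hx, x.2⟩, fun y hy => ?_⟩
  have : (⟨y, hy.2⟩ : D) ∈ interior (A n) := by rw [← hWe]; exact hy.1
  have := interior_subset this
  simpa [A, dist_eq_norm] using this

end Crest.Agent.FP
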